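import Vale.Agent.P217.Final

namespace Vale.Agent.Results.P217.Chai

open Vale.Agent.P217

theorem result (p : ℕ) [Fact p.Prime] (n : ℕ) (hn : 1 ≤ n) :
    (∃! F : FormalGroup (EE p n), IsLT p n F) ∧
    ∀ F : FormalGroup (EE p n), IsLT p n F →
      mulSeries (F.map (res p n)) p = PowerSeries.X ^ p ^ n ∧
      (∀ h, 1 ≤ h → h ≤ n →
        (∀ d, d < p ^ h → PowerSeries.coeff d (mulSeries F p) ∈ htIdeal p n h) ∧
        PowerSeries.coeff (p ^ h) (mulSeries F p) - uu p n h ∈ htIdeal p n h) ∧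
      (∀ σ g, IsAut p n F g → ∃! φ : EE p n ≃+* EE p n, Acts p n F σ g φ) ∧
      (∀ J : Ideal (EE p n), (J.IsPrime ∧ Invariant p n F J) ↔ ∃ h, h ≤ n ∧ J = htIdeal p n h) ∧
      (∀ J : Ideal (EE p n), (J.IsRadical ∧ Invariant p n F J) ↔
        (J = ⊤ ∨ ∃ h, h ≤ n ∧ J = htIdeal p n h)) := by
  refine ⟨?_, fun F hF => ⟨?_, ?_, fun σ g hg => existsUnique_acts hn hF σ hg, fun J => ?_,
    fun J => ?_⟩⟩
  · obtain ⟨F, hF⟩ := exists_formalGroup (p := p) (n := n) (uu p n)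
    refine ⟨F, (isLT_iff F).mpr hF, fun G hG => FormalGroup.ext ?_⟩
    rw [(isLT_iff G).mp hG, hF]
  · have h1 : (F.map (res p n)).toPowerSeries = Fv p n (eH (GaloisField p n) n) := by
      rw [FormalGroup.map_toPowerSeries, (isLT_iff F).mp hF, map_Fv]
      simp only [res_uu hn]
    rw [mulSeries_eq h1, pser_eH (by simp) hn]
  · intro h h1 h2
    rw [mulSeries_eq ((isLT_iff F).mp hF)]
    have hm : ∀ j, j < h → uu p n j ∈ htIdeal p n h := fun j hj =>
      Ideal.subset_span ⟨j, hj, rfl⟩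
    exact coeff_pser_mem (uu_zero (p := p) (n := n) ▸ hm 0 h1) h1 h2 fun j _ hj => hm j hj
  · constructor
    · rintro ⟨hP, hinv⟩
      exact radical_classification hn hP.isRadical hP.ne_top
        fun g φ hg hφ => hinv.map_mem hn hF hg hφ
    · rintro ⟨h, hh, rfl⟩
      exact ⟨htIdeal_prime hn hh, invariant_htIdeal hn hF hh⟩
  · constructor
    · rintro ⟨hR, hinv⟩
      by_cases hJ : J = ⊤
      · exact Or.inl hJ
      · exact Or.inr (radical_classification hn hR hJ fun g φ hg hφ => hinv.map_mem hn hF hg hφ)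
    · rintro (rfl | ⟨h, hh, rfl⟩)
      · exact ⟨fun _ _ => trivial, fun σ g φ _ _ => Ideal.map_top _⟩
      · exact ⟨(htIdeal_prime hn hh).isRadical, invariant_htIdeal hn hF hh⟩

end Vale.Agent.Results.P217.Chai
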